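import Vale.Agent.P159.T1.S.H530.RHi

/-!
P159: the joint Gaussian law of the heights, neutral combinations, in elementary terms.
-/

open Filter Topology

namespace Vale.Agent.P159.T1.S.Hv.H530

open Vale.Agent.P159 Vale.Agent.P159.T1.D Vale.Agent.P159.T1.S.Hv

/-- **Neutral combinations of the heights**: the exponential moments are Gaussian, uniformly in
the domain and in the number of faces -/
theorem joint_neutral' (b : ℝ) (hb : bCrit ≤ b) (ε : ℝ) (hε : 0 < ε) : ∃ η C : ℝ, 0 < η ∧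
    ∀ R : ℕ, 1 ≤ R → ∀ (T : Finset (ℤ × ℤ)) (z : ℤ × ℤ → ℝ),
      (∀ x ∈ T, ∀ y ∈ T, max |(x - y).1| |(x - y).2| ≤ (R : ℤ)) →
      ∑ x ∈ T, z x = 0 → ∑ x ∈ T, |z x| ≤ η → ∀ U : Finset (ℤ × ℤ),
      (∀ u : ℤ × ℤ, (∃ x ∈ T, 2 * max |(u - x).1| |(u - x).2| ≤ (R : ℤ)) → u ∈ U) →
      |Real.log (hMean b U (fun h => Real.exp (∑ x ∈ T, z x * (h x : ℝ)))) +
        1 / 2 * ∑ x ∈ T, ∑ y ∈ T, z x * z y * (helicity b / (2 * Real.pi) *
          Real.log (max 1 ((max |(x - y).1| |(x - y).2| : ℤ) : ℝ)))| ≤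
        (∑ x ∈ T, |z x|) ^ 2 * (ε * Real.log R + C) := by
  have hb0 : 0 < b := (T1.H934.pos_of_ge b hb).1
  obtain ⟨η, C, hη, H⟩ := joint_neutral b hb ε hε
  refine ⟨η, C, hη, fun R hR T z hT hz0 hz U hU => ?_⟩
  have h1 := H R hR T z (fun x hx y hy => by
    have h := hT x hx y hy
    rw [dd_cast] at h
    exact_mod_cast h) hz0 hz U (fun x hx u hu => by
      refine hU u ⟨x, hx, ?_⟩
      rw [mem_bx] at hu
      simp only [Prod.fst_sub, Prod.snd_sub]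
      have h1 : |u.1 - x.1| ≤ ((R / 2 : ℕ) : ℤ) := abs_le.2 hu.1
      have h2 : |u.2 - x.2| ≤ ((R / 2 : ℕ) : ℤ) := abs_le.2 hu.2
      have h3 : max |u.1 - x.1| |u.2 - x.2| ≤ ((R / 2 : ℕ) : ℤ) := max_le h1 h2
      omega)
  rw [hMean_eq hb0.le]
  have e : ∀ x y : ℤ × ℤ, ((max |(x - y).1| |(x - y).2| : ℤ) : ℝ) = (dd x y : ℝ) := fun x y => by
    rw [dd_cast, Int.cast_natCast]
  simp only [e]
  exact h1

/-- **The joint law of the heights in a box**: the exponential moments are Gaussian, uniformly in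
the number of faces -/
theorem joint_box' (b : ℝ) (hb : bCrit ≤ b) (ε : ℝ) (hε : 0 < ε) : ∃ η C : ℝ, 0 < η ∧
    ∀ n : ℕ, 1 ≤ n → ∀ (T : Finset (ℤ × ℤ)) (z : ℤ × ℤ → ℝ),
      (∀ x ∈ T, 2 * max |x.1| |x.2| ≤ (n : ℤ)) → ∑ x ∈ T, |z x| ≤ η →
      |Real.log (hMean b (Finset.Icc (-(n : ℤ), -(n : ℤ)) ((n : ℤ), (n : ℤ)))
          (fun h => Real.exp (∑ x ∈ T, z x * (h x : ℝ)))) -
        1 / 2 * ∑ x ∈ T, ∑ y ∈ T, z x * z y * (helicity b / (2 * Real.pi) *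
          Real.log (n / (max 1 ((max |(x - y).1| |(x - y).2| : ℤ) : ℝ))))| ≤
        (∑ x ∈ T, |z x|) ^ 2 * (ε * Real.log n + C) := by
  have hb0 : 0 < b := (T1.H934.pos_of_ge b hb).1
  obtain ⟨η, C, hη, H⟩ := joint_box b hb ε hε
  refine ⟨η, C, hη, fun n hn T z hT hz => ?_⟩
  have hn' : (1 : ℝ) ≤ n := by exact_mod_cast hn
  have h1 := H n hn T z (fun x hx => by
    have hx2 := hT x hx
    rw [mem_bx0]
    have h1 : |x.1| ≤ max |x.1| |x.2| := le_max_left _ _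
    have h2 : |x.2| ≤ max |x.1| |x.2| := le_max_right _ _
    have h3 := abs_le.1 (le_refl |x.1|)
    have h4 := abs_le.1 (le_refl |x.2|)
    omega) hz
  have e0 : bx 0 n = Finset.Icc (-(n : ℤ), -(n : ℤ)) ((n : ℤ), (n : ℤ)) := by
    unfold bx
    rw [zero_add, zero_sub]
    rfl
  have e : ∀ x y : ℤ × ℤ, Real.log (n / (max 1 ((max |(x - y).1| |(x - y).2| : ℤ) : ℝ))) =
      Real.log n - Real.log (max 1 (dd x y : ℝ)) := fun x y => by
    rw [dd_cast, Int.cast_natCast, Real.log_div (by positivity) (by positivity)]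
  rw [hMean_eq hb0.le, ← e0]
  simp only [e]
  exact h1

end Vale.Agent.P159.T1.S.Hv.H530
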