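import Vale.Agent.P159.T1.S.H711.RHd

/-!
P159: the joint Gaussian law of the heights in a box, part 1: the fields and two general bounds.
-/

open Filter Topology

namespace Vale.Agent.P159.T1.S.Hv.H530

open Vale.Agent.P159 Vale.Agent.P159.T1.D Vale.Agent.P159.T1.S.Hv

/-! ### the flow from a face -/

/-- the flow from the face `x`, cut off at a large distance -/
noncomputable def Bx (N : ℕ) (x : Z2) (e : Bnd) : ℝ := Bf N e - Bg N x e

lemma Bx_eq (N : ℕ) (x : Z2) (e : Bnd) :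
    Bx N x e = ch0 N e.1 * Ba (sh (-x) e) / (2 * Real.pi) := by
  unfold Bx Bf Bg Dg
  ring

lemma Bx_off {N : ℕ} {x : Z2} {e : Bnd} (h : e ∉ SP (2 * N)) : Bx N x e = 0 := by
  unfold Bx
  rw [Bf_off h, Bg_off h, sub_zero]

lemma Bx_isDiv (N : ℕ) (x : Z2) : IsDiv (bx 0 N) (Bx N x) (dl x) := by
  intro f hf
  have h1 := Bf_isDiv N f hf
  have h2 := Bg_isDiv (Finset.Subset.refl (bx 0 N)) x f hf
  simp only at h2
  unfold Bx
  linarith

lemma Bx_abs (N : ℕ) (x : Z2) (e : Bnd) : |Bx N x e| ≤ 14 := by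
  rw [Bx_eq]
  have hp := Real.pi_gt_three
  have h1 := Ba_sq' (sh (-x) e)
  have h2 := sP_ge (sh (-x) e).1
  have h3 : 196 / sP (sh (-x) e).1 ≤ 14 ^ 2 := by
    rw [div_le_iff₀ (by linarith)]
    nlinarith
  have h4 : |Ba (sh (-x) e)| ≤ 14 := abs_le_of_sq_le_sq (h1.trans h3) (by norm_num)
  have h5 : |ch0 N e.1| ≤ 1 := by
    rw [abs_of_nonneg (ch0_nonneg _ _)]
    exact ch0_le _ _
  rw [abs_div, abs_mul, abs_of_pos (by linarith : (0 : ℝ) < 2 * Real.pi),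
    div_le_iff₀ (by linarith)]
  have h6 := mul_le_mul h5 h4 (abs_nonneg _) zero_le_one
  linarith

lemma osc_sub_le (l : ℕ) (S : Finset Bnd) (B B' : Bnd → ℝ) :
    osc l S (fun e => B e - B' e) ≤ 2 * osc l S B + 2 * osc l S B' := by
  unfold osc
  rw [Finset.mul_sum, Finset.mul_sum, ← Finset.sum_add_distrib]
  refine Finset.sum_le_sum fun e _ => ?_
  rw [Finset.mul_sum, Finset.mul_sum, ← Finset.sum_add_distrib]
  refine Finset.sum_le_sum fun u _ => ?_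
  nlinarith [sq_nonneg ((B (sh u e) - B e) + (B' (sh u e) - B' e))]

/-- the constant in the bound of the oscillation -/
noncomputable def Dl3 (l : ℕ) : ℝ :=
  2 * ((2 * (l : ℝ) + 1) ^ 2 * (8 * Dl l)) + 2 * ((2 * (l : ℝ) + 1) ^ 2 * (16 * Dl2 l))

lemma Bx_osc {x : Z2} {N : ℕ} (hx : dd 0 x ≤ N) (l : ℕ) :
    osc l (SP (2 * N)) (Bx N x) ≤ Dl3 l := by
  have h1 := osc_sub_le l (SP (2 * N)) (Bf N) (Bg N x)
  have h2 := Bf_osc l N
  have h3 := Bg_osc (rfl : dd 0 x = dd 0 x) hx l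
  have h4 : osc l (SP (2 * N)) (Bx N x) = osc l (SP (2 * N)) (fun e => Bf N e - Bg N x e) := rfl
  unfold Dl3
  linarith

lemma sum_sub_le {x : Z2} {N : ℕ} (hx : dd 0 x ≤ N) {H : Z2 → ℝ} (hH : ∀ P, 0 ≤ H P) :
    ∑ P ∈ PB (2 * N), H (P - x) ≤ ∑ P ∈ PB (3 * N), H P := by
  have h := sum_shift (A := PB (2 * N)) (B := PB (3 * N)) (g := x) (H := H) hH
  refine le_trans (le_of_eq ?_) h
  refine Finset.sum_congr rfl fun P hP => ?_
  rw [if_pos]
  have hnN' : (dd 0 x : ℝ) ≤ N := by exact_mod_cast hx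
  refine mem_PB_of ?_
  have hm : mP P ≤ 4 * N + 1 := by
    rw [PB, Finset.mem_product] at hP
    have a1 := abs_xr_le hP.1
    have a2 := abs_xr_le hP.2
    push_cast at a1 a2
    exact max_le (by linarith) (by linarith)
  have := (abs_le.1 (mP_sub (rfl : dd 0 x = dd 0 x) P)).2
  push_cast
  linarith

lemma Bx_energy {x : Z2} {N : ℕ} (hx : dd 0 x ≤ N) {δ : ℝ} (hδ : 0 < δ) :
    ∑ e ∈ SP (2 * N), Bx N x e ^ 2 ≤ (1 / (4 * Real.pi ^ 2)) *
      ((1 + δ) * (2 * Real.pi * Real.log (6 * N + 1) + (4 * Real.pi + 32)) +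
        (1 + 1 / δ) * 1152) := by
  have hp := Real.pi_pos
  have h1 : ∀ e : Bnd, Bx N x e ^ 2 ≤ (1 / (4 * Real.pi ^ 2)) * Ba (sh (-x) e) ^ 2 := by
    intro e
    rw [Bx_eq]
    have h2 : ch0 N e.1 ^ 2 ≤ 1 := pow_le_one₀ (ch0_nonneg _ _) (ch0_le _ _)
    have e2 : (ch0 N e.1 * Ba (sh (-x) e) / (2 * Real.pi)) ^ 2 =
        (1 / (4 * Real.pi ^ 2)) * (ch0 N e.1 ^ 2 * Ba (sh (-x) e) ^ 2) := by field_simp; ring
    rw [e2]
    refine mul_le_mul_of_nonneg_left ?_ (by positivity)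
    nlinarith [sq_nonneg (Ba (sh (-x) e))]
  calc ∑ e ∈ SP (2 * N), Bx N x e ^ 2 ≤
        ∑ e ∈ SP (2 * N), (1 / (4 * Real.pi ^ 2)) * Ba (sh (-x) e) ^ 2 :=
        Finset.sum_le_sum fun e _ => h1 e
    _ = (1 / (4 * Real.pi ^ 2)) * ∑ P ∈ PB (2 * N), Qp (P - x) := by
        rw [← Finset.mul_sum]
        unfold SP Qp sh
        rw [Finset.sum_product]
        simp [sub_eq_add_neg]
    _ ≤ (1 / (4 * Real.pi ^ 2)) * ∑ P ∈ PB (3 * N), Qp P :=
        mul_le_mul_of_nonneg_left (sum_sub_le hx Qp_nonneg) (by positivity)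
    _ ≤ (1 / (4 * Real.pi ^ 2)) * ∑ P ∈ PB (3 * N), ((1 + δ) * (4 / sP P) +
          (1 + 1 / δ) * (288 * (1 / sP P ^ 2))) :=
        mul_le_mul_of_nonneg_left (Finset.sum_le_sum fun P _ => Ba_sq_pair hδ) (by positivity)
    _ ≤ _ := by
        refine mul_le_mul_of_nonneg_left ?_ (by positivity)
        rw [Finset.sum_add_distrib, ← Finset.mul_sum, ← Finset.mul_sum, ← Finset.mul_sum]
        have h2 := sum_energy (3 * N)
        have h3 := sum_four (3 * N)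
        have e1 : (2 : ℝ) * ((3 * N : ℕ) : ℝ) + 1 = 6 * N + 1 := by push_cast; ring
        rw [e1] at h2
        have h4 := mul_le_mul_of_nonneg_left h2 (by positivity : 0 ≤ 1 + δ)
        have h5 : (1 + 1 / δ) * (288 * ∑ P ∈ PB (3 * N), 1 / sP P ^ 2) ≤ (1 + 1 / δ) * 1152 :=
          mul_le_mul_of_nonneg_left (by linarith) (by positivity)
        linarith

/-- the energy of the flow from a face -/
lemma energy_up {ε : ℝ} (hε : 0 < ε) : ∃ C : ℝ, ∀ (N : ℕ) (x : Z2), 1 ≤ N → dd 0 x ≤ N →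
    ∑ e ∈ SP (2 * N), Bx N x e ^ 2 ≤ (1 / (2 * Real.pi) + ε) * Real.log N + C := by
  have hp := Real.pi_pos
  refine ⟨(1 / (4 * Real.pi ^ 2)) * ((1 + ε) * (2 * Real.pi * Real.log 7 + (4 * Real.pi + 32)) +
        (1 + 1 / ε) * 1152), fun N x hN hx => ?_⟩
  have hn' : (1 : ℝ) ≤ N := by exact_mod_cast hN
  have hlog : 0 ≤ Real.log N := Real.log_nonneg hn'
  refine (Bx_energy hx hε).trans ?_
  have h5 : Real.log (6 * N + 1) ≤ Real.log 7 + Real.log N := by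
    rw [← Real.log_mul (by norm_num) (by positivity)]
    exact Real.log_le_log (by positivity) (by linarith)
  have h6 : (1 / (4 * Real.pi ^ 2)) * ((1 + ε) * (2 * Real.pi * Real.log (6 * N + 1) +
      (4 * Real.pi + 32)) + (1 + 1 / ε) * 1152) ≤
      (1 / (4 * Real.pi ^ 2)) * ((1 + ε) * (2 * Real.pi * (Real.log 7 + Real.log N) +
      (4 * Real.pi + 32)) + (1 + 1 / ε) * 1152) := by gcongr
  have e : (1 / (4 * Real.pi ^ 2)) * ((1 + ε) * (2 * Real.pi * (Real.log 7 + Real.log N) +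
      (4 * Real.pi + 32)) + (1 + 1 / ε) * 1152) =
      (1 + ε) * (1 / (2 * Real.pi)) * Real.log N +
      (1 / (4 * Real.pi ^ 2)) * ((1 + ε) * (2 * Real.pi * Real.log 7 +
      (4 * Real.pi + 32)) + (1 + 1 / ε) * 1152) := by
    field_simp
    ring
  have h7 : (1 + ε) * (1 / (2 * Real.pi)) * Real.log N ≤
      (1 / (2 * Real.pi) + ε) * Real.log N := by
    refine mul_le_mul_of_nonneg_right ?_ hlog
    have h9 : 1 / (2 * Real.pi) ≤ 1 := by
      rw [div_le_one (by positivity)]; linarith [Real.pi_gt_three]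
    nlinarith
  linarith

/-! ### quadratic forms -/

lemma bil_sum {M : Type*} [AddCommGroup M] [Module ℝ M] (f : M →ₗ[ℝ] M →ₗ[ℝ] ℝ) {ι : Type*}
    (s : Finset ι) (z : ι → ℝ) (v : ι → M) :
    f (∑ i ∈ s, z i • v i) (∑ i ∈ s, z i • v i) =
      ∑ i ∈ s, ∑ j ∈ s, z i * z j * f (v i) (v j) := by
  simp only [map_sum, LinearMap.sum_apply, map_smul, LinearMap.smul_apply, smul_eq_mul,
    Finset.mul_sum]
  rw [Finset.sum_comm]
  refine Finset.sum_congr rfl fun i _ => Finset.sum_congr rfl fun j _ => ?_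
  ring

lemma sum_sum_le {ι : Type*} (s : Finset ι) (z : ι → ℝ) (a : ι → ι → ℝ) {D : ℝ}
    (h : ∀ i ∈ s, ∀ j ∈ s, |a i j| ≤ D) :
    |∑ i ∈ s, ∑ j ∈ s, z i * z j * a i j| ≤ (∑ i ∈ s, |z i|) ^ 2 * D := by
  refine (Finset.abs_sum_le_sum_abs _ _).trans ?_
  have e : (∑ i ∈ s, |z i|) ^ 2 * D = ∑ i ∈ s, ∑ j ∈ s, |z i| * |z j| * D := by
    rw [pow_two, Finset.sum_mul_sum, Finset.sum_mul]
    refine Finset.sum_congr rfl fun i _ => ?_
    rw [Finset.sum_mul]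
  rw [e]
  refine Finset.sum_le_sum fun i hi => (Finset.abs_sum_le_sum_abs _ _).trans ?_
  refine Finset.sum_le_sum fun j hj => ?_
  rw [abs_mul, abs_mul]
  exact mul_le_mul_of_nonneg_left (h i hi j hj) (by positivity)

/-- a nonnegative quadratic form is at most the square of the sum of the weights times the largest
value -/
lemma psd_le {M : Type*} [AddCommGroup M] [Module ℝ M] (f : M →ₗ[ℝ] M →ₗ[ℝ] ℝ)
    (hs : ∀ u v, f u v = f v u) {K : Submodule ℝ M} (h0 : ∀ v ∈ K, 0 ≤ f v v) {ι : Type*}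
    (s : Finset ι) (z : ι → ℝ) (v : ι → M) (hv : ∀ i ∈ s, v i ∈ K) {D : ℝ}
    (hD : ∀ i ∈ s, f (v i) (v i) ≤ D) :
    f (∑ i ∈ s, z i • v i) (∑ i ∈ s, z i • v i) ≤ (∑ i ∈ s, |z i|) ^ 2 * D := by
  rw [bil_sum]
  refine (le_abs_self _).trans (sum_sum_le s z _ fun i hi j hj => ?_)
  have h1 := h0 _ (K.add_mem (hv i hi) (hv j hj))
  have h2 := h0 _ (K.sub_mem (hv i hi) (hv j hj))
  simp only [map_add, map_sub, LinearMap.add_apply, LinearMap.sub_apply] at h1 h2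
  have h3 := hs (v i) (v j)
  have h4 := hD i hi
  have h5 := hD j hj
  rw [abs_le]
  constructor <;> linarith

end Vale.Agent.P159.T1.S.Hv.H530
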