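import Vale.Agent.P159.T1.S.H530.RHg

/-!
P159: the joint Gaussian law of the heights in a box, part 2: the theorem.
-/

open Filter Topology

namespace Vale.Agent.P159.T1.S.Hv.H530

open Vale.Agent.P159 Vale.Agent.P159.T1.D Vale.Agent.P159.T1.S.Hv

/-- the fields which vanish off `S` -/
def KS (S : Finset Bnd) : Submodule ℝ (Bnd → ℝ) where
  carrier := {B | ∀ e, e ∉ S → B e = 0}
  add_mem' := fun {a b} ha hb e he => by
    show a e + b e = 0
    rw [ha e he, hb e he, add_zero]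
  zero_mem' := fun _ _ => rfl
  smul_mem' := fun c a ha e he => by
    show c * a e = 0
    rw [ha e he, mul_zero]

/-- the energy form -/
noncomputable def eL (S : Finset Bnd) : (Bnd → ℝ) →ₗ[ℝ] (Bnd → ℝ) →ₗ[ℝ] ℝ :=
  LinearMap.mk₂ ℝ (fun B B' => ∑ e ∈ S, B e * B' e)
    (fun B B' B'' => by simp only [Pi.add_apply, add_mul, Finset.sum_add_distrib])
    (fun c B B' => by simp only [Pi.smul_apply, smul_eq_mul, Finset.mul_sum, mul_assoc])
    (fun B B' B'' => by simp only [Pi.add_apply, mul_add, Finset.sum_add_distrib])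
    (fun c B B' => by simp only [Pi.smul_apply, smul_eq_mul, Finset.mul_sum, mul_left_comm])

/-- the oscillation form -/
noncomputable def oL (l : ℕ) (S : Finset Bnd) : (Bnd → ℝ) →ₗ[ℝ] (Bnd → ℝ) →ₗ[ℝ] ℝ :=
  LinearMap.mk₂ ℝ (fun B B' => ∑ e ∈ S,
      ∑ u ∈ Finset.Icc (-(l : ℤ), -(l : ℤ)) ((l : ℤ), (l : ℤ)),
        (B (sh u e) - B e) * (B' (sh u e) - B' e))
    (fun B B' B'' => by
      simp only [Pi.add_apply, ← Finset.sum_add_distrib]
      refine Finset.sum_congr rfl fun e _ => Finset.sum_congr rfl fun u _ => ?_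
      ring)
    (fun c B B' => by
      simp only [Pi.smul_apply, smul_eq_mul, Finset.mul_sum]
      refine Finset.sum_congr rfl fun e _ => Finset.sum_congr rfl fun u _ => ?_
      ring)
    (fun B B' B'' => by
      simp only [Pi.add_apply, ← Finset.sum_add_distrib]
      refine Finset.sum_congr rfl fun e _ => Finset.sum_congr rfl fun u _ => ?_
      ring)
    (fun c B B' => by
      simp only [Pi.smul_apply, smul_eq_mul, Finset.mul_sum]
      refine Finset.sum_congr rfl fun e _ => Finset.sum_congr rfl fun u _ => ?_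
      ring)

/-- the covariance form -/
noncomputable def cL {b : ℝ} (hb : 0 ≤ b) (U : Finset Z2) :
    (Bnd → ℝ) →ₗ[ℝ] (Bnd → ℝ) →ₗ[ℝ] ℝ :=
  LinearMap.mk₂ ℝ (H469.Cv b U)
    (fun B B' B'' => H469.Cv_add_left hb U B B' B'')
    (fun c B B' => H469.Cv_smul_left b U c B B')
    (fun B B' B'' => H469.Cv_add_right hb U B B' B'')
    (fun c B B' => H469.Cv_smul_right b U c B B')

lemma eL_self (S : Finset Bnd) (B : Bnd → ℝ) : eL S B B = ∑ e ∈ S, B e ^ 2 := by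
  show ∑ e ∈ S, B e * B e = _
  simp only [pow_two]

lemma eL_comm (S : Finset Bnd) (B B' : Bnd → ℝ) : eL S B B' = eL S B' B := by
  show ∑ e ∈ S, B e * B' e = ∑ e ∈ S, B' e * B e
  simp only [mul_comm]

lemma oL_self (l : ℕ) (S : Finset Bnd) (B : Bnd → ℝ) : oL l S B B = osc l S B := by
  show ∑ e ∈ S, ∑ u ∈ Finset.Icc (-(l : ℤ), -(l : ℤ)) ((l : ℤ), (l : ℤ)),
        (B (sh u e) - B e) * (B (sh u e) - B e) = _
  unfold osc
  simp only [pow_two]

lemma oL_comm (l : ℕ) (S : Finset Bnd) (B B' : Bnd → ℝ) : oL l S B B' = oL l S B' B := by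
  show ∑ e ∈ S, ∑ u ∈ Finset.Icc (-(l : ℤ), -(l : ℤ)) ((l : ℤ), (l : ℤ)),
        (B (sh u e) - B e) * (B' (sh u e) - B' e) = ∑ e ∈ S,
        ∑ u ∈ Finset.Icc (-(l : ℤ), -(l : ℤ)) ((l : ℤ), (l : ℤ)),
        (B' (sh u e) - B' e) * (B (sh u e) - B e)
  refine Finset.sum_congr rfl fun e _ => Finset.sum_congr rfl fun u _ => ?_
  ring

lemma cL_self {b : ℝ} (hb : 0 ≤ b) (U : Finset Z2) (B : Bnd → ℝ) : cL hb U B B = Vr b U B :=
  H469.Cv_self b U B

lemma cL_comm {b : ℝ} (hb : 0 ≤ b) (U : Finset Z2) (B B' : Bnd → ℝ) :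
    cL hb U B B' = cL hb U B' B :=
  H469.Cv_comm b U B B'

lemma osc_nonneg' (l : ℕ) (S : Finset Bnd) (B : Bnd → ℝ) : 0 ≤ osc l S B := by
  unfold osc
  exact Finset.sum_nonneg fun e _ => Finset.sum_nonneg fun u _ => sq_nonneg _

lemma cL_div {b : ℝ} (hb : 0 ≤ b) {U : Finset Z2} {B B' : Bnd → ℝ} {x y : Z2} (hx : x ∈ U)
    (hy : y ∈ U) (hB : IsDiv U B (dl x)) (hB' : IsDiv U B' (dl y)) :
    cL hb U B B' = E b U fun h => (h x : ℝ) * h y := by
  show H469.Cv b U B B' = _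
  unfold H469.Cv D.E
  congr 1
  refine tsum_congr fun h => ?_
  simp only
  rw [H910.pr_isDiv hB h, H910.pr_isDiv hB' h, ch_dl hx, ch_dl hy]

/-- the pairing with a combination of fields -/
lemma pr_comb {U : Finset Z2} (s : Finset Z2) (z : Z2 → ℝ) (v : Z2 → Bnd → ℝ)
    (hs : ∀ x ∈ s, x ∈ U) (hv : ∀ x ∈ s, IsDiv U (v x) (dl x)) (h : Ht U) :
    pr U (∑ x ∈ s, z x • v x) 0 h.1 = ∑ x ∈ s, z x * (h.1 x : ℝ) := by
  have h1 : pr U (∑ x ∈ s, z x • v x) 0 h.1 = ∑ x ∈ s, z x * pr U (v x) 0 h.1 := by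
    unfold pr
    simp only [Finset.sum_apply, Pi.smul_apply, smul_eq_mul, Finset.sum_mul, Finset.mul_sum]
    rw [Finset.sum_comm]
    refine Finset.sum_congr rfl fun x _ => Finset.sum_congr rfl fun e _ => ?_
    ring
  rw [h1]
  refine Finset.sum_congr rfl fun x hx => ?_
  rw [H910.pr_isDiv (hv x hx) h, ch_dl (hs x hx)]

/-- the exponential moment as a ratio of partition functions -/
lemma mgf_eq {b : ℝ} {U : Finset Z2} (s : Finset Z2) (z : Z2 → ℝ) (v : Z2 → Bnd → ℝ)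
    (hs : ∀ x ∈ s, x ∈ U) (hv : ∀ x ∈ s, IsDiv U (v x) (dl x)) :
    (E b U fun h => Real.exp (∑ x ∈ s, z x * (h x : ℝ))) =
      ZB b U 0 (∑ x ∈ s, z x • v x) / Z b U := by
  unfold D.E ZB
  congr 1
  refine tsum_congr fun h => ?_
  simp only
  rw [pr_comb s z v hs hv h]

/-- **The joint law of the heights in a box is Gaussian up to `ε log n`.** -/
theorem joint_box (b : ℝ) (hb : bCrit ≤ b) (ε : ℝ) (hε : 0 < ε) : ∃ η C : ℝ, 0 < η ∧
    ∀ n : ℕ, 1 ≤ n → ∀ (s : Finset Z2) (z : Z2 → ℝ), (∀ x ∈ s, x ∈ bx 0 (n / 2)) →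
      ∑ x ∈ s, |z x| ≤ η →
      |Real.log (E b (bx 0 n) fun h => Real.exp (∑ x ∈ s, z x * (h x : ℝ))) -
        1 / 2 * ∑ x ∈ s, ∑ y ∈ s, z x * z y *
          (helicity b / (2 * Real.pi) * (Real.log n - Real.log (max 1 (dd x y : ℝ))))| ≤
        (∑ x ∈ s, |z x|) ^ 2 * (ε * Real.log n + C) := by
  have hYb := T1.H934.pos_of_ge b hb
  have hb0 : 0 < b := hYb.1
  have hp := Real.pi_pos
  have hY0 : 0 < helicity b := lt_of_lt_of_le (by positivity) hYb.2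
  obtain ⟨Y, hY⟩ : ∃ Y : ℝ, Y = helicity b := ⟨_, rfl⟩
  rw [← hY] at hY0
  obtain ⟨l1, η, C1, hη, hC1, H1⟩ := stmtU b (ε / 3) hb0 (by positivity)
  obtain ⟨l2, C2, hC2, H2⟩ := (H469.uv_of_u stmtU) b (ε / 3) hb0 (by positivity)
  obtain ⟨A, hA⟩ : ∃ A : ℝ, A = Y + ε / 3 := ⟨_, rfl⟩
  rw [← hY, ← hA] at H1 H2
  have hA0 : 0 < A := by rw [hA]; positivity
  obtain ⟨C3, H3⟩ := energy_up (ε := ε / (3 * A)) (by positivity)
  obtain ⟨C4, H4⟩ := cov_box b hb (ε / 3) (by positivity)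
  rw [← hY] at H4 ⊢
  -- the bound for one face
  obtain ⟨M, hM⟩ : ∃ M : ℝ, M = A * |C3| + C2 * Dl3 l2 + |C4| := ⟨_, rfl⟩
  have hDl3 : ∀ l, 0 ≤ Dl3 l := fun l => by unfold Dl3 Dl Dl2; positivity
  have hM0 : 0 ≤ M := by
    rw [hM]
    have := hDl3 l2
    positivity
  refine ⟨η / 14, M + C1 * Dl3 l1 + |C4|, by positivity, fun n hn s z hs hz => ?_⟩
  have hn' : (1 : ℝ) ≤ n := by exact_mod_cast hn
  have hlog : 0 ≤ Real.log n := Real.log_nonneg hn'
  obtain ⟨W, hW⟩ : ∃ W : ℝ, W = ∑ x ∈ s, |z x| := ⟨_, rfl⟩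
  have hW0 : 0 ≤ W := by rw [hW]; exact Finset.sum_nonneg fun x _ => abs_nonneg _
  rw [← hW] at hz ⊢
  have hsU : ∀ x ∈ s, x ∈ bx 0 n := fun x hx => bx_mono (by omega) (hs x hx)
  have hdd : ∀ x ∈ s, dd 0 x ≤ n := by
    intro x hx
    have h := hsU x hx
    rw [mem_bx0] at h
    unfold dd
    simp only [Prod.fst_zero, Prod.snd_zero, zero_sub, Int.natAbs_neg]
    omega
  have hdiv : ∀ x ∈ s, IsDiv (bx 0 n) (Bx n x) (dl x) := fun x _ => Bx_isDiv n x
  obtain ⟨B, hB⟩ : ∃ B : Bnd → ℝ, B = ∑ x ∈ s, z x • Bx n x := ⟨_, rfl⟩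
  -- the field is small
  have hsmall : ∀ e, |B e| ≤ η := by
    intro e
    rw [hB]
    simp only [Finset.sum_apply, Pi.smul_apply, smul_eq_mul]
    calc |∑ x ∈ s, z x * Bx n x e| ≤ ∑ x ∈ s, |z x * Bx n x e| := Finset.abs_sum_le_sum_abs _ _
      _ ≤ ∑ x ∈ s, |z x| * 14 := Finset.sum_le_sum fun x _ => by
          rw [abs_mul]; exact mul_le_mul_of_nonneg_left (Bx_abs n x e) (abs_nonneg _)
      _ = W * 14 := by rw [← Finset.sum_mul, hW]
      _ ≤ η := by linarith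
  have hoff : ∀ x : Z2, Bx n x ∈ KS (SP (2 * n)) := fun x e he => Bx_off he
  have hBoff : B ∈ KS (SP (2 * n)) := by
    rw [hB]
    exact Submodule.sum_mem _ fun x _ => Submodule.smul_mem _ _ (hoff x)
  -- the form
  obtain ⟨T, hT⟩ : ∃ T : (Bnd → ℝ) →ₗ[ℝ] (Bnd → ℝ) →ₗ[ℝ] ℝ,
    T = A • eL (SP (2 * n)) + C2 • oL l2 (SP (2 * n)) - cL hb0.le (bx 0 n) := ⟨_, rfl⟩
  have hT2 : ∀ B', T B' B' = A * ∑ e ∈ SP (2 * n), B' e ^ 2 + C2 * osc l2 (SP (2 * n)) B' -
      Vr b (bx 0 n) B' := by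
    intro B'
    rw [hT]
    simp only [LinearMap.sub_apply, LinearMap.add_apply, LinearMap.smul_apply, smul_eq_mul,
      eL_self, oL_self, cL_self]
  have hTs : ∀ u v, T u v = T v u := by
    intro u v
    rw [hT]
    simp only [LinearMap.sub_apply, LinearMap.add_apply, LinearMap.smul_apply, smul_eq_mul]
    rw [eL_comm, oL_comm, cL_comm]
  have hT0 : ∀ v ∈ KS (SP (2 * n)), 0 ≤ T v v := by
    intro v hv
    rw [hT2]
    have := H2 (bx 0 n) (SP (2 * n)) v hv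
    linarith
  have hTD : ∀ x ∈ s, T (Bx n x) (Bx n x) ≤ ε * Real.log n + M := by
    intro x hx
    rw [hT2]
    have a1 := H3 n x hn (hdd x hx)
    have a2 := Bx_osc (hdd x hx) l2
    have a3 := (abs_le.1 (H4 n hn x x (hs x hx) (hs x hx))).1
    have e1 : dd x x = 0 := by unfold dd; simp
    have e2 : (E b (bx 0 n) fun h => (h x : ℝ) * h x) = Vr b (bx 0 n) (Bx n x) := by
      rw [← cL_self hb0.le, cL_div hb0.le (hsU x hx) (hsU x hx) (hdiv x hx) (hdiv x hx)]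
    rw [e1, e2] at a3
    simp only [Nat.cast_zero, max_eq_left (zero_le_one' ℝ), Real.log_one, sub_zero] at a3
    have a4 := mul_le_mul_of_nonneg_left a1 hA0.le
    have a5 := mul_le_mul_of_nonneg_left a2 hC2.le
    have e3 : A * ((1 / (2 * Real.pi) + ε / (3 * A)) * Real.log n + C3) =
        Y / (2 * Real.pi) * Real.log n + ε / 3 * (1 / (2 * Real.pi)) * Real.log n +
        ε / 3 * Real.log n + A * C3 := by
      have : A * ((1 / (2 * Real.pi) + ε / (3 * A)) * Real.log n + C3) =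
          A / (2 * Real.pi) * Real.log n + ε / 3 * Real.log n + A * C3 := by
        field_simp
      rw [this, hA]
      ring
    rw [e3] at a4
    have h9 : 1 / (2 * Real.pi) ≤ 1 := by
      rw [div_le_one (by positivity)]; linarith [Real.pi_gt_three]
    have h10 : ε / 3 * (1 / (2 * Real.pi)) * Real.log n ≤ ε / 3 * Real.log n := by
      refine mul_le_mul_of_nonneg_right ?_ hlog
      nlinarith
    have h11 := le_abs_self C3
    have h12 := le_abs_self C4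
    have h13 := mul_le_mul_of_nonneg_left h11 hA0.le
    rw [hM]
    linarith
  have k1 : T B B ≤ W ^ 2 * (ε * Real.log n + M) := by
    rw [hB, hW]
    exact psd_le T hTs hT0 s z _ (fun x _ => hoff x) hTD
  have k2 : osc l1 (SP (2 * n)) B ≤ W ^ 2 * Dl3 l1 := by
    rw [← oL_self, hB, hW]
    exact psd_le (oL l1 (SP (2 * n))) (oL_comm _ _) (K := ⊤)
      (fun v _ => by rw [oL_self]; exact osc_nonneg' _ _ _) s z _ (fun x _ => Submodule.mem_top)
      fun x hx => by rw [oL_self]; exact Bx_osc (hdd x hx) l1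
  -- the variance
  obtain ⟨G, hG⟩ : ∃ G : ℝ, G = ∑ x ∈ s, ∑ y ∈ s, z x * z y *
    (Y / (2 * Real.pi) * (Real.log n - Real.log (max 1 (dd x y : ℝ)))) := ⟨_, rfl⟩
  have k3 : |Vr b (bx 0 n) B - G| ≤ W ^ 2 * (ε / 3 * Real.log n + |C4|) := by
    rw [← cL_self hb0.le, hB, bil_sum, hG, hW, ← Finset.sum_sub_distrib]
    have e1 : ∀ x ∈ s, (∑ y ∈ s, z x * z y * cL hb0.le (bx 0 n) (Bx n x) (Bx n y)) -
        (∑ y ∈ s, z x * z y *
          (Y / (2 * Real.pi) * (Real.log n - Real.log (max 1 (dd x y : ℝ))))) =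
        ∑ y ∈ s, z x * z y * (cL hb0.le (bx 0 n) (Bx n x) (Bx n y) -
          Y / (2 * Real.pi) * (Real.log n - Real.log (max 1 (dd x y : ℝ)))) := by
      intro x _
      rw [← Finset.sum_sub_distrib]
      refine Finset.sum_congr rfl fun y _ => ?_
      ring
    rw [Finset.sum_congr rfl e1]
    refine sum_sum_le s z _ fun x hx y hy => ?_
    rw [cL_div hb0.le (hsU x hx) (hsU y hy) (hdiv x hx) (hdiv y hy)]
    have := le_abs_self C4
    exact (H4 n hn x y (hs x hx) (hs y hy)).trans (by linarith)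
  -- the exponential moment
  rw [mgf_eq s z (fun x => Bx n x) hsU hdiv, ← hB, ← hG]
  have hZ := T1.H315.Z_pos hb0.le (bx 0 n)
  have k4 := H1 (bx 0 n) (SP (2 * n)) 0 B hBoff hsmall
  have k5 := H910.exp_Vr_le hb0.le (bx 0 n) B
  have k6 : Real.exp (Vr b (bx 0 n) B / 2) ≤ ZB b (bx 0 n) 0 B / Z b (bx 0 n) := by
    rwa [le_div_iff₀ hZ]
  have k7 : ZB b (bx 0 n) 0 B / Z b (bx 0 n) ≤
      Real.exp (A / 2 * ∑ e ∈ SP (2 * n), B e ^ 2 + C1 * osc l1 (SP (2 * n)) B) := by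
    rwa [div_le_iff₀ hZ]
  have hpos : 0 < ZB b (bx 0 n) 0 B / Z b (bx 0 n) := (Real.exp_pos _).trans_le k6
  have k8 := (Real.le_log_iff_exp_le hpos).2 k6
  have k9 := (Real.log_le_iff_le_exp hpos).2 k7
  have k10 := hT2 B
  have k11 := osc_nonneg' l2 (SP (2 * n)) B
  have k12 := mul_nonneg hC2.le k11
  have k13 := mul_le_mul_of_nonneg_left k2 hC1.le
  obtain ⟨k14, k15⟩ := abs_le.1 k3
  have hW2 : 0 ≤ W ^ 2 := sq_nonneg W
  have m1 : 0 ≤ W ^ 2 * (ε * Real.log n) := by positivity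
  have m2 : 0 ≤ W ^ 2 * |C4| := by positivity
  have m3 : 0 ≤ W ^ 2 * M := by positivity
  have m4 : 0 ≤ W ^ 2 * (C1 * Dl3 l1) := by
    have := hDl3 l1
    positivity
  have m5 : W ^ 2 * (ε * Real.log n + (M + C1 * Dl3 l1 + |C4|)) =
      W ^ 2 * (ε * Real.log n) + W ^ 2 * M + W ^ 2 * (C1 * Dl3 l1) + W ^ 2 * |C4| := by ring
  have m6 : W ^ 2 * (ε * Real.log n + M) = W ^ 2 * (ε * Real.log n) + W ^ 2 * M := by ring
  have m7 : W ^ 2 * (ε / 3 * Real.log n + |C4|) =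
      1 / 3 * (W ^ 2 * (ε * Real.log n)) + W ^ 2 * |C4| := by ring
  have m8 : C1 * (W ^ 2 * Dl3 l1) = W ^ 2 * (C1 * Dl3 l1) := by ring
  have m9 : A / 2 * ∑ e ∈ SP (2 * n), B e ^ 2 = 1 / 2 * (A * ∑ e ∈ SP (2 * n), B e ^ 2) := by ring
  rw [m6] at k1
  rw [m7] at k14 k15
  rw [m8] at k13
  rw [m9] at k9
  rw [m5, abs_le]
  constructor
  · linarith
  · linarith

end Vale.Agent.P159.T1.S.Hv.H530
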