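import Vale.Agent.P159.T1.S.H530.RHh

/-!
P159: the joint Gaussian law of the heights, neutral combinations, uniformly in the domain.
-/

open Filter Topology

namespace Vale.Agent.P159.T1.S.Hv.H530

open Vale.Agent.P159 Vale.Agent.P159.T1.D Vale.Agent.P159.T1.S.Hv

lemma dd_self (x : Z2) : dd x x = 0 := by unfold dd; simp

lemma dd_pos {x y : Z2} (h : x ≠ y) : 1 ≤ dd x y := by
  by_contra h1
  have h0 : dd x y = 0 := by omega
  unfold dd at h0
  apply h
  rw [Nat.max_eq_zero_iff] at h0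
  exact Prod.ext (by omega) (by omega)

lemma dd_sub (x y : Z2) : dd 0 (y - x) = dd x y := by
  unfold dd
  simp only [Prod.fst_zero, Prod.snd_zero, Prod.fst_sub, Prod.snd_sub]
  congr 1 <;> congr 1 <;> ring

lemma Bx_sub (N : ℕ) (x y : Z2) (e : Bnd) :
    Bx N x e - Bx N y e = ch0 N e.1 * Dg (y - x) (sh (-x) e) / (2 * Real.pi) := by
  have h : sh (-(y - x)) (sh (-x) e) = sh (-y) e := by
    unfold sh
    simp only
    congr 1
    abel
  rw [Bx_eq, Bx_eq, Dg, h]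
  ring

/-- the energy of the difference of two flows -/
lemma energy_up2 {ε : ℝ} (hε : 0 < ε) : ∃ C : ℝ, ∀ (N : ℕ) (x y : Z2), x ≠ y → dd 0 x ≤ N →
    ∑ e ∈ SP (2 * N), (Bx N x e - Bx N y e) ^ 2 ≤
      (1 / Real.pi + ε) * Real.log (dd x y) + C := by
  have hp := Real.pi_pos
  obtain ⟨δ, hδdef⟩ : ∃ δ : ℝ, δ = min 1 ε := ⟨_, rfl⟩
  have hδ : 0 < δ := by rw [hδdef]; exact lt_min one_pos hε
  have hδ1 : δ ≤ 1 := by rw [hδdef]; exact min_le_left _ _
  have hδ2 : δ ≤ ε := by rw [hδdef]; exact min_le_right _ _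
  refine ⟨(1 / (4 * Real.pi ^ 2)) *
      (2 * ((1 + δ) * ((1 + δ) * (2 * Real.pi * Real.log 3 +
      (4 * Real.pi + 32)) + (1 + 1 / δ) * 1152) + (1 + 1 / δ) * 6272) + 161700),
      fun N x y hxy hx => ?_⟩
  obtain ⟨n, hn⟩ : ∃ n, dd x y = n := ⟨_, rfl⟩
  have hn1 : 1 ≤ n := by rw [← hn]; exact dd_pos hxy
  have hn' : (1 : ℝ) ≤ n := by exact_mod_cast hn1
  have h1 : ∀ e : Bnd, (Bx N x e - Bx N y e) ^ 2 ≤
      (1 / (4 * Real.pi ^ 2)) * Dg (y - x) (sh (-x) e) ^ 2 := by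
    intro e
    rw [Bx_sub]
    have h2 : ch0 N e.1 ^ 2 ≤ 1 := pow_le_one₀ (ch0_nonneg _ _) (ch0_le _ _)
    have e2 : (ch0 N e.1 * Dg (y - x) (sh (-x) e) / (2 * Real.pi)) ^ 2 =
        (1 / (4 * Real.pi ^ 2)) * (ch0 N e.1 ^ 2 * Dg (y - x) (sh (-x) e) ^ 2) := by
      field_simp; ring
    rw [e2]
    refine mul_le_mul_of_nonneg_left ?_ (by positivity)
    nlinarith [sq_nonneg (Dg (y - x) (sh (-x) e))]
  have hF : ∀ P, 0 ≤ Fg (y - x) P := fun P => by unfold Fg; positivity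
  have key : ∑ e ∈ SP (2 * N), (Bx N x e - Bx N y e) ^ 2 ≤ (1 / (4 * Real.pi ^ 2)) *
      (2 * ((1 + δ) * ((1 + δ) * (2 * Real.pi * Real.log (2 * n + 1) +
      (4 * Real.pi + 32)) + (1 + 1 / δ) * 1152) + (1 + 1 / δ) * 6272) + 161700) := by
    calc ∑ e ∈ SP (2 * N), (Bx N x e - Bx N y e) ^ 2 ≤
          ∑ e ∈ SP (2 * N), (1 / (4 * Real.pi ^ 2)) * Dg (y - x) (sh (-x) e) ^ 2 :=
          Finset.sum_le_sum fun e _ => h1 e
      _ = (1 / (4 * Real.pi ^ 2)) * ∑ P ∈ PB (2 * N), Fg (y - x) (P - x) := by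
          rw [← Finset.mul_sum]
          unfold SP Fg
          rw [Finset.sum_product]
          simp [sub_eq_add_neg, sh]
      _ ≤ (1 / (4 * Real.pi ^ 2)) * ∑ P ∈ PB (3 * N), Fg (y - x) P :=
          mul_le_mul_of_nonneg_left (sum_sub_le hx hF) (by positivity)
      _ ≤ _ := mul_le_mul_of_nonneg_left (Fg_sum hn1 (by rw [dd_sub, hn]) hδ (3 * N))
          (by positivity)
  refine key.trans ?_
  rw [hn]
  have h5 : Real.log (2 * n + 1) ≤ Real.log 3 + Real.log n := by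
    rw [← Real.log_mul (by norm_num) (by positivity)]
    exact Real.log_le_log (by positivity) (by linarith)
  have h6 : ((1 / (4 * Real.pi ^ 2)) *
      (2 * ((1 + δ) * ((1 + δ) * (2 * Real.pi * Real.log (2 * n + 1) +
      (4 * Real.pi + 32)) + (1 + 1 / δ) * 1152) + (1 + 1 / δ) * 6272) + 161700)) ≤
      ((1 / (4 * Real.pi ^ 2)) *
      (2 * ((1 + δ) * ((1 + δ) * (2 * Real.pi * (Real.log 3 + Real.log n) +
      (4 * Real.pi + 32)) + (1 + 1 / δ) * 1152) + (1 + 1 / δ) * 6272) + 161700)) := by gcongr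
  have e : ((1 / (4 * Real.pi ^ 2)) *
      (2 * ((1 + δ) * ((1 + δ) * (2 * Real.pi * (Real.log 3 + Real.log n) +
      (4 * Real.pi + 32)) + (1 + 1 / δ) * 1152) + (1 + 1 / δ) * 6272) + 161700)) =
      (1 + δ) ^ 2 * (1 / Real.pi) * Real.log n + (1 / (4 * Real.pi ^ 2)) *
      (2 * ((1 + δ) * ((1 + δ) * (2 * Real.pi * Real.log 3 +
      (4 * Real.pi + 32)) + (1 + 1 / δ) * 1152) + (1 + 1 / δ) * 6272) + 161700) := by
    field_simp
    ring
  have h7 : (1 + δ) ^ 2 * (1 / Real.pi) * Real.log n ≤ (1 / Real.pi + ε) * Real.log n := by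
    refine mul_le_mul_of_nonneg_right ?_ (Real.log_nonneg hn')
    have h8 : (1 + δ) ^ 2 ≤ 1 + 3 * δ := by nlinarith
    have h9 : (1 + δ) ^ 2 * (1 / Real.pi) ≤ (1 + 3 * δ) * (1 / Real.pi) :=
      mul_le_mul_of_nonneg_right h8 (by positivity)
    have h10 : 3 / Real.pi ≤ 1 := by
      rw [div_le_one hp]; linarith [Real.pi_gt_three]
    have h11 : (1 + 3 * δ) * (1 / Real.pi) = 1 / Real.pi + δ * (3 / Real.pi) := by field_simp
    nlinarith
  linarith

lemma E_one {b : ℝ} (hb : 0 ≤ b) (U : Finset Z2) : (E b U fun _ => 1) = 1 := by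
  unfold D.E
  have hZ := T1.H315.Z_pos hb U
  have e : ∑' h : Ht U, wt b U 0 h.1 * (1 : ℝ) = Z b U := by
    unfold Z
    exact tsum_congr fun h => mul_one _
  rw [e, div_self hZ.ne']

/-- **Neutral combinations of heights are Gaussian up to `ε log`, uniformly in the domain.** -/
theorem joint_neutral (b : ℝ) (hb : bCrit ≤ b) (ε : ℝ) (hε : 0 < ε) : ∃ η C : ℝ, 0 < η ∧
    ∀ R : ℕ, 1 ≤ R → ∀ (s : Finset Z2) (z : Z2 → ℝ), (∀ x ∈ s, ∀ y ∈ s, dd x y ≤ R) →
      ∑ x ∈ s, z x = 0 → ∑ x ∈ s, |z x| ≤ η →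
      ∀ U : Finset Z2, (∀ x ∈ s, bx x (R / 2) ⊆ U) →
      |Real.log (E b U fun h => Real.exp (∑ x ∈ s, z x * (h x : ℝ))) +
        1 / 2 * ∑ x ∈ s, ∑ y ∈ s, z x * z y *
          (helicity b / (2 * Real.pi) * Real.log (max 1 (dd x y : ℝ)))| ≤
        (∑ x ∈ s, |z x|) ^ 2 * (ε * Real.log R + C) := by
  have hYb := T1.H934.pos_of_ge b hb
  have hb0 : 0 < b := hYb.1
  have hp := Real.pi_pos
  have hY0 : 0 < helicity b := lt_of_lt_of_le (by positivity) hYb.2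
  obtain ⟨Y, hY⟩ : ∃ Y : ℝ, Y = helicity b := ⟨_, rfl⟩
  rw [← hY] at hY0
  obtain ⟨l1, η, C1, hη, hC1, H1⟩ := stmtU b (ε / 3) hb0 (by positivity)
  obtain ⟨l2, C2, hC2, H2⟩ := (H469.uv_of_u stmtU) b (ε / 3) hb0 (by positivity)
  obtain ⟨A, hA⟩ : ∃ A : ℝ, A = Y + ε / 3 := ⟨_, rfl⟩
  rw [← hY, ← hA] at H1 H2
  have hA0 : 0 < A := by rw [hA]; positivity
  obtain ⟨C3, H3⟩ := energy_up2 (ε := ε / (3 * A)) (by positivity)
  obtain ⟨C4, H4⟩ := height_diff2 b hb (ε / 3) (by positivity)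
  rw [← hY] at H4 ⊢
  obtain ⟨M, hM⟩ : ∃ M : ℝ, M = A * |C3| + C2 * (4 * Dl3 l2) + |C4| := ⟨_, rfl⟩
  have hDl3 : ∀ l, 0 ≤ Dl3 l := fun l => by unfold Dl3 Dl Dl2; positivity
  have hM0 : 0 ≤ M := by
    rw [hM]
    have := hDl3 l2
    positivity
  refine ⟨η / 14, M + C1 * Dl3 l1 + |C4|, by positivity, fun R hR s z hs hz0 hz U hU => ?_⟩
  have hR' : (1 : ℝ) ≤ R := by exact_mod_cast hR
  have hlog : 0 ≤ Real.log R := Real.log_nonneg hR'
  rcases s.eq_empty_or_nonempty with h0 | ⟨x0, hx0⟩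
  · rw [h0]
    simp only [Finset.sum_empty, Real.exp_zero, mul_zero, add_zero]
    rw [E_one hb0.le, Real.log_one, abs_zero]
    simp
  obtain ⟨W, hW⟩ : ∃ W : ℝ, W = ∑ x ∈ s, |z x| := ⟨_, rfl⟩
  have hW0 : 0 ≤ W := by rw [hW]; exact Finset.sum_nonneg fun x _ => abs_nonneg _
  rw [← hW] at hz ⊢
  have hsU : ∀ x ∈ s, x ∈ U := fun x hx => hU x hx (by rw [mem_bx]; omega)
  obtain ⟨N, hN⟩ : ∃ N : ℕ, N = U.sup fun x => max x.1.natAbs x.2.natAbs := ⟨_, rfl⟩
  have hUN' : ∀ x ∈ U, max x.1.natAbs x.2.natAbs ≤ N := fun x hx => by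
    rw [hN]
    exact Finset.le_sup (f := fun x : Z2 => max x.1.natAbs x.2.natAbs) hx
  have hUN : U ⊆ bx 0 N := by
    intro x hx
    have h1 := hUN' x hx
    rw [mem_bx0]
    have h2 := le_max_left x.1.natAbs x.2.natAbs
    have h3 := le_max_right x.1.natAbs x.2.natAbs
    omega
  have hdd : ∀ x ∈ s, dd 0 x ≤ N := by
    intro x hx
    have h := hUN' x (hsU x hx)
    unfold dd
    simp only [Prod.fst_zero, Prod.snd_zero, zero_sub, Int.natAbs_neg]
    exact h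
  have hdiv : ∀ x ∈ s, IsDiv U (Bx N x) (dl x) := fun x _ f hf => Bx_isDiv N x f (hUN hf)
  obtain ⟨B, hB⟩ : ∃ B : Bnd → ℝ, B = ∑ x ∈ s, z x • Bx N x := ⟨_, rfl⟩
  have hB' : B = ∑ x ∈ s, z x • (Bx N x - Bx N x0) := by
    rw [hB]
    simp only [smul_sub, Finset.sum_sub_distrib]
    rw [← Finset.sum_smul, hz0, zero_smul, sub_zero]
  -- the field is small
  have hsmall : ∀ e, |B e| ≤ η := by
    intro e
    rw [hB]
    simp only [Finset.sum_apply, Pi.smul_apply, smul_eq_mul]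
    calc |∑ x ∈ s, z x * Bx N x e| ≤ ∑ x ∈ s, |z x * Bx N x e| := Finset.abs_sum_le_sum_abs _ _
      _ ≤ ∑ x ∈ s, |z x| * 14 := Finset.sum_le_sum fun x _ => by
          rw [abs_mul]; exact mul_le_mul_of_nonneg_left (Bx_abs N x e) (abs_nonneg _)
      _ = W * 14 := by rw [← Finset.sum_mul, hW]
      _ ≤ η := by linarith
  have hoff : ∀ x : Z2, Bx N x ∈ KS (SP (2 * N)) := fun x e he => Bx_off he
  have hBoff : B ∈ KS (SP (2 * N)) := by
    rw [hB]
    exact Submodule.sum_mem _ fun x _ => Submodule.smul_mem _ _ (hoff x)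
  -- the form
  obtain ⟨T, hT⟩ : ∃ T : (Bnd → ℝ) →ₗ[ℝ] (Bnd → ℝ) →ₗ[ℝ] ℝ,
    T = A • eL (SP (2 * N)) + C2 • oL l2 (SP (2 * N)) - cL hb0.le U := ⟨_, rfl⟩
  have hT2 : ∀ B', T B' B' = A * ∑ e ∈ SP (2 * N), B' e ^ 2 + C2 * osc l2 (SP (2 * N)) B' -
      Vr b U B' := by
    intro B'
    rw [hT]
    simp only [LinearMap.sub_apply, LinearMap.add_apply, LinearMap.smul_apply, smul_eq_mul,
      eL_self, oL_self, cL_self]
  have hTs : ∀ u v, T u v = T v u := by
    intro u v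
    rw [hT]
    simp only [LinearMap.sub_apply, LinearMap.add_apply, LinearMap.smul_apply, smul_eq_mul]
    rw [eL_comm, oL_comm, cL_comm]
  have hT0 : ∀ v ∈ KS (SP (2 * N)), 0 ≤ T v v := by
    intro v hv
    rw [hT2]
    have := H2 U (SP (2 * N)) v hv
    linarith
  have hlogd : ∀ x ∈ s, ∀ y ∈ s, x ≠ y → 0 ≤ Real.log (dd x y) ∧
      Real.log (dd x y) ≤ Real.log R := by
    intro x hx y hy hxy
    have h1 : (1 : ℝ) ≤ dd x y := by exact_mod_cast dd_pos hxy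
    exact ⟨Real.log_nonneg h1, Real.log_le_log (by linarith) (by exact_mod_cast hs x hx y hy)⟩
  have hv2 : ∀ x ∈ s, ∀ y ∈ s, x ≠ y →
      |v2 b U x y - Y / Real.pi * Real.log (dd x y)| ≤ ε / 3 * Real.log (dd x y) + C4 := by
    intro x hx y hy hxy
    have h1 : dd x y / 2 ≤ R / 2 := Nat.div_le_div_right (hs x hx y hy)
    exact H4 x y hxy U ((bx_mono h1).trans (hU x hx)) ((bx_mono h1).trans (hU y hy))
  have hTD : ∀ x ∈ s, T (Bx N x - Bx N x0) (Bx N x - Bx N x0) ≤ ε * Real.log R + M := by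
    intro x hx
    by_cases hxx : x = x0
    · rw [hxx, sub_self, map_zero]
      positivity
    rw [hT2]
    have a1 := H3 N x x0 hxx (hdd x hx)
    have a2 : osc l2 (SP (2 * N)) (Bx N x - Bx N x0) ≤ 4 * Dl3 l2 := by
      have h1 := osc_sub_le l2 (SP (2 * N)) (Bx N x) (Bx N x0)
      have h2 := Bx_osc (hdd x hx) l2
      have h3 := Bx_osc (hdd x0 hx0) l2
      have h4 : osc l2 (SP (2 * N)) (Bx N x - Bx N x0) =
        osc l2 (SP (2 * N)) (fun e => Bx N x e - Bx N x0 e) := rfl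
      linarith
    have a3 := (abs_le.1 (hv2 x hx x0 hx0 hxx)).1
    have e2 : v2 b U x x0 = Vr b U (Bx N x - Bx N x0) := by
      rw [v2_eq (hsU x hx) (hsU x0 hx0), ← Vr_of_div (B := Bx N x - Bx N x0)]
      intro f hf
      have h1 := hdiv x hx f hf
      have h2 := hdiv x0 hx0 f hf
      simp only [Pi.sub_apply]
      linarith
    rw [e2] at a3
    obtain ⟨L0, L1⟩ := hlogd x hx x0 hx0 hxx
    have a4 := mul_le_mul_of_nonneg_left a1 hA0.le
    have a5 := mul_le_mul_of_nonneg_left a2 hC2.le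
    have e3 : A * ((1 / Real.pi + ε / (3 * A)) * Real.log (dd x x0) + C3) =
        Y / Real.pi * Real.log (dd x x0) + ε / 3 * (1 / Real.pi) * Real.log (dd x x0) +
        ε / 3 * Real.log (dd x x0) + A * C3 := by
      have : A * ((1 / Real.pi + ε / (3 * A)) * Real.log (dd x x0) + C3) =
          A / Real.pi * Real.log (dd x x0) + ε / 3 * Real.log (dd x x0) + A * C3 := by
        field_simp
      rw [this, hA]
      ring
    rw [e3] at a4
    have h9 : 1 / Real.pi ≤ 1 := by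
      rw [div_le_one hp]; linarith [Real.pi_gt_three]
    have h10 : ε / 3 * (1 / Real.pi) * Real.log (dd x x0) ≤ ε / 3 * Real.log (dd x x0) := by
      refine mul_le_mul_of_nonneg_right ?_ L0
      nlinarith
    have h11 := le_abs_self C3
    have h12 := le_abs_self C4
    have h13 := mul_le_mul_of_nonneg_left h11 hA0.le
    have h14 := mul_le_mul_of_nonneg_left L1 hε.le
    have e5 : ∑ e ∈ SP (2 * N), (Bx N x - Bx N x0) e ^ 2 =
        ∑ e ∈ SP (2 * N), (Bx N x e - Bx N x0 e) ^ 2 := rfl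
    rw [hM, e5]
    linarith
  have k1 : T B B ≤ W ^ 2 * (ε * Real.log R + M) := by
    rw [hB', hW]
    exact psd_le T hTs hT0 s z _ (fun x _ => Submodule.sub_mem _ (hoff x) (hoff x0)) hTD
  have k2 : osc l1 (SP (2 * N)) B ≤ W ^ 2 * Dl3 l1 := by
    rw [← oL_self, hB, hW]
    exact psd_le (oL l1 (SP (2 * N))) (oL_comm _ _) (K := ⊤)
      (fun v _ => by rw [oL_self]; exact osc_nonneg' _ _ _) s z _ (fun x _ => Submodule.mem_top)
      fun x hx => by rw [oL_self]; exact Bx_osc (hdd x hx) l1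
  -- the variance
  obtain ⟨G, hG⟩ : ∃ G : ℝ, G = ∑ x ∈ s, ∑ y ∈ s, z x * z y *
    (Y / (2 * Real.pi) * Real.log (max 1 (dd x y : ℝ))) := ⟨_, rfl⟩
  have k3 : |Vr b U B + G| ≤ W ^ 2 * (ε / 3 * Real.log R + |C4|) := by
    have e0 : Vr b U B = ∑ x ∈ s, ∑ y ∈ s, z x * z y * (-(v2 b U x y / 2)) := by
      rw [← cL_self hb0.le, hB, bil_sum]
      have e1 : ∀ x ∈ s, ∀ y ∈ s, z x * z y * cL hb0.le U (Bx N x) (Bx N y) =
          z x * hv b U x / 2 * z y + z x * (z y * hv b U y / 2) +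
            z x * z y * (-(v2 b U x y / 2)) := by
        intro x hx y hy
        rw [cL_div hb0.le (hsU x hx) (hsU y hy) (hdiv x hx) (hdiv y hy),
          cov_polar hb0.le (hsU x hx) (hsU y hy)]
        ring
      rw [Finset.sum_congr rfl fun x hx => Finset.sum_congr rfl fun y hy => e1 x hx y hy]
      simp only [Finset.sum_add_distrib]
      have e2 : ∑ x ∈ s, ∑ y ∈ s, z x * hv b U x / 2 * z y = 0 := by
        refine Finset.sum_eq_zero fun x _ => ?_
        rw [← Finset.mul_sum, hz0, mul_zero]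
      have e3 : ∑ x ∈ s, ∑ y ∈ s, z x * (z y * hv b U y / 2) = 0 := by
        rw [← Finset.sum_mul_sum, hz0, zero_mul]
      rw [e2, e3, zero_add, zero_add]
    rw [e0, hG, hW, ← Finset.sum_add_distrib]
    have e1 : ∀ x ∈ s, (∑ y ∈ s, z x * z y * (-(v2 b U x y / 2))) +
        (∑ y ∈ s, z x * z y * (Y / (2 * Real.pi) * Real.log (max 1 (dd x y : ℝ)))) =
        ∑ y ∈ s, z x * z y * (-(v2 b U x y / 2) +
          Y / (2 * Real.pi) * Real.log (max 1 (dd x y : ℝ))) := by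
      intro x _
      rw [← Finset.sum_add_distrib]
      refine Finset.sum_congr rfl fun y _ => ?_
      ring
    rw [Finset.sum_congr rfl e1]
    refine sum_sum_le s z _ fun x hx y hy => ?_
    by_cases hxy : x = y
    · subst hxy
      have e2 : v2 b U x x = 0 := by
        unfold v2 D.E
        simp
      rw [e2, dd_self]
      simp only [Nat.cast_zero, max_eq_left (zero_le_one' ℝ), Real.log_one, mul_zero, zero_div,
        neg_zero, add_zero, abs_zero]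
      positivity
    · have h1 := hv2 x hx y hy hxy
      obtain ⟨L0, L1⟩ := hlogd x hx y hy hxy
      have h2 : (1 : ℝ) ≤ dd x y := by exact_mod_cast dd_pos hxy
      rw [max_eq_right h2]
      have e2 : -(v2 b U x y / 2) + Y / (2 * Real.pi) * Real.log (dd x y) =
          -(1 / 2) * (v2 b U x y - Y / Real.pi * Real.log (dd x y)) := by
        field_simp
        ring
      rw [e2, abs_mul]
      have h3 : |-(1 / 2 : ℝ)| = 1 / 2 := by rw [abs_neg, abs_of_pos (by norm_num)]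
      rw [h3]
      have h4 := le_abs_self C4
      have h5 := mul_le_mul_of_nonneg_left L1 (by positivity : 0 ≤ ε / 3)
      have h6 := abs_nonneg (v2 b U x y - Y / Real.pi * Real.log (dd x y))
      linarith
  -- the exponential moment
  rw [mgf_eq s z (fun x => Bx N x) hsU hdiv, ← hB, ← hG]
  have hZ := T1.H315.Z_pos hb0.le U
  have k4 := H1 U (SP (2 * N)) 0 B hBoff hsmall
  have k5 := H910.exp_Vr_le hb0.le U B
  have k6 : Real.exp (Vr b U B / 2) ≤ ZB b U 0 B / Z b U := by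
    rwa [le_div_iff₀ hZ]
  have k7 : ZB b U 0 B / Z b U ≤
      Real.exp (A / 2 * ∑ e ∈ SP (2 * N), B e ^ 2 + C1 * osc l1 (SP (2 * N)) B) := by
    rwa [div_le_iff₀ hZ]
  have hpos : 0 < ZB b U 0 B / Z b U := (Real.exp_pos _).trans_le k6
  have k8 := (Real.le_log_iff_exp_le hpos).2 k6
  have k9 := (Real.log_le_iff_le_exp hpos).2 k7
  have k10 := hT2 B
  have k11 := osc_nonneg' l2 (SP (2 * N)) B
  have k12 := mul_nonneg hC2.le k11
  have k13 := mul_le_mul_of_nonneg_left k2 hC1.le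
  obtain ⟨k14, k15⟩ := abs_le.1 k3
  have m1 : 0 ≤ W ^ 2 * (ε * Real.log R) := by positivity
  have m2 : 0 ≤ W ^ 2 * |C4| := by positivity
  have m3 : 0 ≤ W ^ 2 * M := by positivity
  have m4 : 0 ≤ W ^ 2 * (C1 * Dl3 l1) := by
    have := hDl3 l1
    positivity
  have m5 : W ^ 2 * (ε * Real.log R + (M + C1 * Dl3 l1 + |C4|)) =
      W ^ 2 * (ε * Real.log R) + W ^ 2 * M + W ^ 2 * (C1 * Dl3 l1) + W ^ 2 * |C4| := by ring
  have m6 : W ^ 2 * (ε * Real.log R + M) = W ^ 2 * (ε * Real.log R) + W ^ 2 * M := by ring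
  have m7 : W ^ 2 * (ε / 3 * Real.log R + |C4|) =
      1 / 3 * (W ^ 2 * (ε * Real.log R)) + W ^ 2 * |C4| := by ring
  have m8 : C1 * (W ^ 2 * Dl3 l1) = W ^ 2 * (C1 * Dl3 l1) := by ring
  have m9 : A / 2 * ∑ e ∈ SP (2 * N), B e ^ 2 = 1 / 2 * (A * ∑ e ∈ SP (2 * N), B e ^ 2) := by ring
  rw [m6] at k1
  rw [m7] at k14 k15
  rw [m8] at k13
  rw [m9] at k9
  rw [m5, abs_le]
  constructor
  · linarith
  · linarith

end Vale.Agent.P159.T1.S.Hv.H530
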